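import Vale.Agent.P273.H517.Core3

/-! P273 / H996: the matching constant between a neck and the core does not depend on the point. -/

namespace Vale.Agent.P273.H996

open Complex Set Filter Topology Metric
open Vale.Agent.P273.H598 (rz Xz rz_sq rz_ne_zero norm_Xz differentiableAt_rz c0 P0 Xz_ne_zero
  Xz_mul hasDerivAt_neck ne_zero_of_lt)
open Vale.Agent.P273.H517

noncomputable section

variable {e ε : Fin 3 → ℂ}

/-- derivative of the root -/
theorem hasDerivAt_rz {a z : ℂ} (h : ‖a‖ < ‖z‖ ^ 2) :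
    HasDerivAt (fun z => rz a z) (z * (rz a z)⁻¹) z := by
  have hz := ne_zero_of_lt h
  have h0 := rz_ne_zero h
  have h1 : DifferentiableAt ℂ (fun z => rz a z) z :=
    DifferentiableAt.comp (g := fun q : ℂ × ℂ => rz q.1 q.2) (f := fun z => (a, z)) z
      (differentiableAt_rz h) (by fun_prop)
  have h2 := h1.hasDerivAt
  have h3 : HasDerivAt (fun z => rz a z ^ 2) (2 * rz a z * deriv (fun z => rz a z) z) z := by
    refine (h2.fun_pow 2).congr_deriv ?_
    simp
  have h4 : HasDerivAt (fun z : ℂ => z ^ 2 - a) (2 * z) z := by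
    have := (hasDerivAt_pow 2 z).sub_const a
    simpa using this
  have h5 : (fun z => rz a z ^ 2) =ᶠ[𝓝 z] fun z : ℂ => z ^ 2 - a := by
    filter_upwards [isOpen_ne.mem_nhds hz] with y hy
    exact rz_sq hy
  have h6 := (h4.congr_of_eventuallyEq h5).unique h3
  have h7 : deriv (fun z => rz a z) z = z * (rz a z)⁻¹ := by
    field_simp
    linear_combination (-1 / 2 : ℂ) * h6
  rw [← h7]
  exact h2

theorem hasDerivAt_Xz {a z : ℂ} (h : ‖a‖ < ‖z‖ ^ 2) :
    HasDerivAt (fun z => Xz a z) (Xz a z * (rz a z)⁻¹) z := by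
  have h0 := rz_ne_zero h
  have h1 := (hasDerivAt_id z).add (hasDerivAt_rz h)
  refine h1.congr_deriv ?_
  unfold Xz
  field_simp
  ring

/-- the derivative of the matching function is zero -/
theorem hasDerivAt_kpf (he : Sep e) (hs : Sm ε) (ell : Fin 3 → Fin 3 → ℂ) {m : ℕ} (hm : m ≤ 1)
    (k : Fin 3) {z : ℂ} (h1 : 1 / 128 < ‖z‖) (h2 : ‖z‖ < 3 / 5) :
    HasDerivAt (kpf e ε ell m k) 0 z := by
  have hlt : ‖ε k‖ < ‖z‖ ^ 2 := lt_sq_of (hs k) h1.le
  have hz := ne_zero_of_lt hlt
  have hr0 := rz_ne_zero hlt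
  obtain ⟨hX1, hX2, hX0⟩ := Xz_bound (hs k) h1 h2
  have hx : ∀ l, 1 / 128 < ‖(e k + z) - e l‖ := by
    intro l
    by_cases hkl : k = l
    · subst hkl
      rw [add_sub_cancel_left]
      exact h1
    · have h3 := he k l hkl
      have h4 : ‖e k - e l‖ ≤ ‖e k + z - e l‖ + ‖z‖ := by
        have : e k - e l = (e k + z - e l) - z := by ring
        rw [this]
        exact norm_sub_le _ _
      linarith
  have d1 : HasDerivAt (fun z => MM e ε m (e k + z))
      (ph e ε m (e k + z) - ∑ l, ((e k + z) - e l)⁻¹ * cm e ε m l) z := by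
    have h3 := hasDerivAt_MM he hs hm hx
    have h4 : HasDerivAt (fun z => e k + z) 1 z := (hasDerivAt_id z).const_add (e k)
    have h5 := HasDerivAt.comp z h3 h4
    rw [mul_one] at h5
    exact h5
  have hel : ∀ l ∈ Finset.univ.erase k, e k - e l ≠ 0 ∧ e k + z - e l ≠ 0 ∧
      1 + z / (e k - e l) ∈ slitPlane := by
    intro l hl
    have hlk : k ≠ l := (Finset.ne_of_mem_erase hl).symm
    have h3 := he k l hlk
    have h4 : e k - e l ≠ 0 := by
      rw [← norm_pos_iff]
      linarith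
    have h5 : e k + z - e l ≠ 0 := by
      rw [← norm_pos_iff]
      have := hx l
      linarith
    refine ⟨h4, h5, Or.inl ?_⟩
    have h6 : ‖z / (e k - e l)‖ < 1 := by
      rw [norm_div, div_lt_one (by linarith)]
      linarith
    have h7 := (abs_le.1 (abs_re_le_norm (z / (e k - e l)))).1
    simp only [add_re, one_re]
    linarith
  have d2 : HasDerivAt (fun z => ∑ l ∈ Finset.univ.erase k,
      cm e ε m l * (ell k l + log (1 + z / (e k - e l))))
      (∑ l ∈ Finset.univ.erase k, ((e k + z) - e l)⁻¹ * cm e ε m l) z := by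
    refine HasDerivAt.fun_sum fun l hl => ?_
    obtain ⟨h3, h4, h5⟩ := hel l hl
    have h6 : HasDerivAt (fun z : ℂ => 1 + z / (e k - e l)) (1 / (e k - e l)) z :=
      ((hasDerivAt_id z).div_const (e k - e l)).const_add 1
    have h7 := ((h6.clog h5).const_add (ell k l)).const_mul (cm e ε m l)
    refine h7.congr_deriv ?_
    have h8 : 1 + z / (e k - e l) ≠ 0 := slitPlane_ne_zero h5
    have h9 : 1 + z / (e k - e l) = (e k + z - e l) / (e k - e l) := by
      field_simp
      ring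
    rw [h9]
    field_simp
  have dX := hasDerivAt_Xz hlt
  have d3 : HasDerivAt (fun z => cm e ε m k * log (Xz (ε k) z / z))
      (cm e ε m k * ((rz (ε k) z)⁻¹ - z⁻¹)) z := by
    have h3 : HasDerivAt (fun z => Xz (ε k) z / z)
        ((Xz (ε k) z * (rz (ε k) z)⁻¹ * z - Xz (ε k) z * 1) / z ^ 2) z :=
      dX.div (hasDerivAt_id z) hz
    have h4 := (h3.clog (Xz_slit hlt)).const_mul (cm e ε m k)
    refine h4.congr_deriv ?_
    congr 1
    field_simp
  have d4 : HasDerivAt (fun z => Rn e ε m k (Xz (ε k) z) - Rn e ε m k (ε k / Xz (ε k) z))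
      ((rz (ε k) z)⁻¹ * (hn e ε m k z - cm e ε m k)) z := by
    have h3 := hasDerivAt_neck (hn_dc he hs m k) hX0 hX1 hX2
    have h4 := HasDerivAt.comp z h3 dX
    refine h4.congr_deriv ?_
    have h5 : (Xz (ε k) z + ε k / Xz (ε k) z) / 2 = z := by
      have h6 : ε k / Xz (ε k) z = z - rz (ε k) z := by
        rw [div_eq_iff hX0, mul_comm]
        exact (Xz_mul hz).symm
      rw [h6]
      unfold Xz
      ring
    rw [h5, ← cm_eq_c0 he hs m k, smul_eq_mul]
    field_simp
  have d := ((d1.add d2).sub d3).sub d4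
  refine d.congr_deriv ?_
  rw [ph_eq_hn, ← Finset.add_sum_erase Finset.univ (fun l => ((e k + z) - e l)⁻¹ * cm e ε m l)
    (Finset.mem_univ k), add_sub_cancel_left]
  field_simp
  ring

/-- **The matching function is constant on the annulus.** -/
theorem kpf_const (he : Sep e) (hs : Sm ε) (ell : Fin 3 → Fin 3 → ℂ) {m : ℕ} (hm : m ≤ 1)
    (k : Fin 3) {z : ℂ} (h1 : 1 / 128 < ‖z‖) (h2 : ‖z‖ < 3 / 5) :
    kpf e ε ell m k z = kp e ε ell m k := by
  have hmem : ∀ w : ℂ, w ∈ re ⁻¹' Ioo (Real.log (1 / 128)) (Real.log (3 / 5)) ↔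
      1 / 128 < ‖exp w‖ ∧ ‖exp w‖ < 3 / 5 := by
    intro w
    rw [norm_exp, mem_preimage, mem_Ioo, Real.log_lt_iff_lt_exp (by norm_num),
      Real.lt_log_iff_exp_lt (by norm_num)]
  have hopen : IsOpen (re ⁻¹' Ioo (Real.log (1 / 128)) (Real.log (3 / 5))) :=
    isOpen_Ioo.preimage continuous_re
  have hconv : Convex ℝ (re ⁻¹' Ioo (Real.log (1 / 128)) (Real.log (3 / 5))) :=
    (convex_Ioo _ _).linear_preimage reLm
  have hd : ∀ w ∈ re ⁻¹' Ioo (Real.log (1 / 128)) (Real.log (3 / 5)),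
      HasDerivAt (fun w => kpf e ε ell m k (exp w)) 0 w := by
    intro w hw
    obtain ⟨h3, h4⟩ := (hmem w).1 hw
    have h5 := HasDerivAt.comp w (hasDerivAt_kpf he hs ell hm k h3 h4) (hasDerivAt_exp w)
    rw [zero_mul] at h5
    exact h5
  have hz : z ≠ 0 := by
    rw [← norm_pos_iff]
    linarith
  have h4 : (1 / 4 : ℂ) ≠ 0 := by norm_num
  have n4 : ‖(1 / 4 : ℂ)‖ = 1 / 4 := by
    rw [norm_div]
    norm_num
  have key := hopen.is_const_of_deriv_eq_zero hconv.isPreconnected
    (f := fun w => kpf e ε ell m k (exp w))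
    (fun w hw => (hd w hw).differentiableAt.differentiableWithinAt)
    (fun w hw => (hd w hw).deriv)
    (x := log z) (y := log (1 / 4))
    ((hmem _).2 (by rw [exp_log hz]; exact ⟨h1, h2⟩))
    ((hmem _).2 (by rw [exp_log h4, n4]; norm_num))
  simp only [exp_log hz, exp_log h4] at key
  exact key

end

end Vale.Agent.P273.H996
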